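/-
P235-M, helper462.  (TREE): a family of `4 J + 1` binary time trees such that every window contains,
in the weighted mean, a window of the tree which carries a fraction `1 / (C (J + 1))` of any
monotone subadditive capacity.  Pure combinatorics.
-/
import Mathlib

namespace VPTree

open Finset

/-- shapes of binary trees -/
inductive Sh : Type
  | leaf : Sh
  | node : Sh → Sh → Sh

namespace Sh

/-- number of leaves -/
def size : Sh → ℕ
  | leaf => 1
  | node l r => l.size + r.size

/-- `[x,y)` is a window of `t` placed at `s` -/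
def IsNode : Sh → ℕ → ℕ → ℕ → Prop
  | leaf, s, x, y => x = s ∧ y = s + 1
  | node l r, s, x, y => (x = s ∧ y = s + (l.size + r.size)) ∨ l.IsNode s x y ∨
      r.IsNode (s + l.size) x y

/-- the mirror image -/
def mirror : Sh → Sh
  | leaf => leaf
  | node l r => node r.mirror l.mirror

/-- `m + 1` copies of `T`, peeled on the left -/
def comb (T : Sh) : ℕ → Sh
  | 0 => T
  | m + 1 => node T (comb T m)

/-- the tree with spacing `p` and `l` scales -/
def ty (p : ℕ) : ℕ → Sh
  | 0 => leaf
  | l + 1 => comb (ty p l) (2 ^ p - 1)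

theorem size_pos : ∀ t : Sh, 0 < t.size
  | leaf => Nat.one_pos
  | node l r => Nat.add_pos_left (size_pos l) _

theorem root_isNode : ∀ (t : Sh) (s : ℕ), t.IsNode s s (s + t.size)
  | leaf, s => ⟨rfl, rfl⟩
  | node l r, s => Or.inl ⟨rfl, rfl⟩

theorem isNode_bounds : ∀ (t : Sh) (s x y : ℕ), t.IsNode s x y → s ≤ x ∧ x < y ∧ y ≤ s + t.size
  | leaf, s, x, y, h => by
      obtain ⟨rfl, rfl⟩ := h
      exact ⟨le_rfl, Nat.lt_succ_self _, le_rfl⟩
  | node l r, s, x, y, h => by
      have hl := size_pos l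
      have hr := size_pos r
      show s ≤ x ∧ x < y ∧ y ≤ s + (l.size + r.size)
      rcases h with ⟨rfl, rfl⟩ | h | h
      · exact ⟨le_rfl, by omega, by omega⟩
      · have := isNode_bounds l _ _ _ h
        omega
      · have := isNode_bounds r _ _ _ h
        omega

theorem size_mirror : ∀ t : Sh, t.mirror.size = t.size
  | leaf => rfl
  | node l r => by
      show r.mirror.size + l.mirror.size = l.size + r.size
      rw [size_mirror l, size_mirror r, add_comm]

theorem isNode_mirror : ∀ (t : Sh) (s x y : ℕ), t.IsNode s x y → ∀ s' x' y' : ℕ,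
    x + y' = s + s' + t.size → y + x' = s + s' + t.size → t.mirror.IsNode s' x' y'
  | leaf, s, x, y, h, s', x', y', h1, h2 => by
      obtain ⟨rfl, rfl⟩ := h
      change x + y' = x + s' + 1 at h1
      change x + 1 + x' = x + s' + 1 at h2
      exact ⟨by omega, by omega⟩
  | node l r, s, x, y, h, s', x', y', h1, h2 => by
      change x + y' = s + s' + (l.size + r.size) at h1
      change y + x' = s + s' + (l.size + r.size) at h2
      show (x' = s' ∧ y' = s' + (r.mirror.size + l.mirror.size)) ∨ r.mirror.IsNode s' x' y' ∨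
        l.mirror.IsNode (s' + r.mirror.size) x' y'
      rcases h with ⟨rfl, rfl⟩ | h | h
      · left
        rw [size_mirror, size_mirror]
        omega
      · right; right
        rw [size_mirror]
        exact isNode_mirror l _ _ _ h _ _ _ (by omega) (by omega)
      · right; left
        exact isNode_mirror r _ _ _ h _ _ _ (by omega) (by omega)

theorem size_comb (T : Sh) : ∀ m, (comb T m).size = (m + 1) * T.size
  | 0 => by simp [comb]
  | m + 1 => by
      show T.size + (comb T m).size = _
      rw [size_comb T m]; ring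

theorem size_ty (p : ℕ) : ∀ l, (ty p l).size = 2 ^ (p * l)
  | 0 => by simp [ty, size]
  | l + 1 => by
      show (comb (ty p l) (2 ^ p - 1)).size = _
      rw [size_comb, size_ty p l, Nat.sub_add_cancel Nat.one_le_two_pow]
      ring

/-- suffixes of the comb are windows -/
theorem comb_suffix (T : Sh) : ∀ (m s i : ℕ), i ≤ m →
    (comb T m).IsNode s (s + i * T.size) (s + (m + 1) * T.size)
  | m, s, 0, _ => by
      have := root_isNode (comb T m) s
      rw [size_comb] at this
      simpa using this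
  | 0, s, i + 1, h => by omega
  | m + 1, s, i + 1, h => by
      right; right
      have := comb_suffix T m (s + T.size) i (by omega)
      have e1 : s + T.size + i * T.size = s + (i + 1) * T.size := by ring
      have e2 : s + T.size + (m + 1) * T.size = s + (m + 1 + 1) * T.size := by ring
      rw [e1, e2] at this
      exact this

/-- windows of the units are windows of the comb -/
theorem comb_unit (T : Sh) : ∀ (m s i x y : ℕ), i ≤ m → T.IsNode (s + i * T.size) x y →
    (comb T m).IsNode s x y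
  | 0, s, i, x, y, h, hn => by
      have : i = 0 := by omega
      subst this
      simpa [comb] using hn
  | m + 1, s, 0, x, y, h, hn => by
      right; left
      simpa using hn
  | m + 1, s, i + 1, x, y, h, hn => by
      right; right
      refine comb_unit T m (s + T.size) i x y (by omega) ?_
      have e1 : s + T.size + i * T.size = s + (i + 1) * T.size := by ring
      rw [e1]; exact hn

/-- aligned blocks are subtrees -/
theorem ty_block (p l : ℕ) : ∀ (d s q x y : ℕ), (q + 1) * 2 ^ (p * l) ≤ 2 ^ (p * (l + d)) →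
    (ty p l).IsNode (s + q * 2 ^ (p * l)) x y → (ty p (l + d)).IsNode s x y
  | 0, s, q, x, y, h, hn => by
      have hp : 0 < 2 ^ (p * l) := by positivity
      have : q + 1 ≤ 1 := by
        by_contra hc
        push Not at hc
        have : 2 * 2 ^ (p * l) ≤ (q + 1) * 2 ^ (p * l) := Nat.mul_le_mul_right _ hc
        simp only [add_zero] at h
        omega
      have : q = 0 := by omega
      subst this
      simpa using hn
  | d + 1, s, q, x, y, h, hn => by
      show (comb (ty p (l + d)) (2 ^ p - 1)).IsNode s x y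
      set D := 2 ^ (p * d) with hD
      have hDpos : 0 < D := by positivity
      have hP : 0 < 2 ^ (p * l) := by positivity
      have e1 : 2 ^ (p * (l + d)) = D * 2 ^ (p * l) := by rw [hD, ← pow_add]; ring_nf
      have e2 : 2 ^ (p * (l + (d + 1))) = 2 ^ p * D * 2 ^ (p * l) := by
        rw [hD, ← pow_add, ← pow_add]; ring_nf
      rw [e2] at h
      have hq : q + 1 ≤ 2 ^ p * D := Nat.le_of_mul_le_mul_right h hP
      have hu : q / D < 2 ^ p := by
        rw [Nat.div_lt_iff_lt_mul hDpos]; omega
      refine comb_unit _ _ _ (q / D) _ _ (by omega) ?_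
      refine ty_block p l d _ (q % D) x y ?_ ?_
      · rw [e1]
        exact Nat.mul_le_mul_right _ (Nat.mod_lt _ hDpos)
      · rw [size_ty, e1]
        have : s + q / D * (D * 2 ^ (p * l)) + q % D * 2 ^ (p * l) = s + q * 2 ^ (p * l) := by
          conv_rhs => rw [← Nat.div_add_mod q D]
          ring
        rw [this]; exact hn

/-- the windows of `ty p n` which are used -/
theorem ty_suffix (p l n a q : ℕ) (hl : l + 1 ≤ n) (hn : (q + 1) * 2 ^ (p * (l + 1)) ≤ 2 ^ (p * n))
    (h1 : q * 2 ^ p ≤ a) (h2 : a < (q + 1) * 2 ^ p) :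
    (ty p n).IsNode 0 (a * 2 ^ (p * l)) ((q + 1) * 2 ^ (p * (l + 1))) := by
  obtain ⟨d, rfl⟩ := Nat.exists_eq_add_of_le hl
  refine ty_block p (l + 1) d 0 q _ _ hn ?_
  show (comb (ty p l) (2 ^ p - 1)).IsNode _ _ _
  have hp : 0 < 2 ^ p := by positivity
  have h3 : (q + 1) * 2 ^ p = q * 2 ^ p + 2 ^ p := by ring
  have := comb_suffix (ty p l) (2 ^ p - 1) (0 + q * 2 ^ (p * (l + 1))) (a - q * 2 ^ p) (by omega)
  rw [size_ty, Nat.sub_add_cancel (Nat.one_le_two_pow)] at this
  have e1 : 0 + q * 2 ^ (p * (l + 1)) + (a - q * 2 ^ p) * 2 ^ (p * l) = a * 2 ^ (p * l) := by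
    have : q * 2 ^ (p * (l + 1)) = q * 2 ^ p * 2 ^ (p * l) := by rw [mul_assoc, ← pow_add]; ring_nf
    rw [this, zero_add, ← add_mul]
    congr 1; omega
  have e2 : 0 + q * 2 ^ (p * (l + 1)) + 2 ^ p * 2 ^ (p * l) = (q + 1) * 2 ^ (p * (l + 1)) := by
    have : 2 ^ p * 2 ^ (p * l) = 2 ^ (p * (l + 1)) := by rw [← pow_add]; ring_nf
    rw [this]; ring
  rw [e1, e2] at this
  exact this

end Sh

/-- monotone subadditive window functions -/
structure Cap (R : ℕ → ℕ → ℝ) : Prop where
  nonneg : ∀ x y, 0 ≤ R x y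
  zero : ∀ x, R x x = 0
  mono : ∀ x' x y y', x' ≤ x → x ≤ y → y ≤ y' → R x y ≤ R x' y'
  sub : ∀ x y z, x ≤ y → y ≤ z → R x z ≤ R x y + R y z

namespace Cap

variable {R : ℕ → ℕ → ℝ}

theorem rev (h : Cap R) (Z : ℕ) : Cap (fun a b => R (Z - b) (Z - a)) where
  nonneg x y := h.nonneg _ _
  zero x := h.zero _
  mono x' x y y' h1 h2 h3 := h.mono _ _ _ _ (by omega) (by omega) (by omega)
  sub x y z h1 h2 := by
    have := h.sub (Z - z) (Z - y) (Z - x) (by omega) (by omega)
    linarith

/-- `V` bounds all aligned dyadic blocks inside `[x,y]` -/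
def Blk (R : ℕ → ℕ → ℝ) (x y : ℕ) (V : ℝ) : Prop :=
  ∀ s q, x ≤ q * 2 ^ s → (q + 1) * 2 ^ s ≤ y → R (q * 2 ^ s) ((q + 1) * 2 ^ s) ≤ V

theorem cover (h : Cap R) {x y : ℕ} {V : ℝ} (hV0 : 0 ≤ V) (hV : Blk R x y V) (s q : ℕ)
    (hx : x ≤ q * 2 ^ s) : ∀ (m a b : ℕ), q * 2 ^ s ≤ a → a ≤ b → b ≤ (q + m) * 2 ^ s →
    b + 2 ^ s ≤ y → R a b ≤ m * V
  | 0, a, b, h1, h2, h3, _ => by
      have : a = b := by simp only [add_zero] at h3; omega
      subst this
      rw [h.zero]; simp
  | m + 1, a, b, h1, h2, h3, h4 => by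
      by_cases hb : b ≤ (q + m) * 2 ^ s
      · have := cover h hV0 hV s q hx m a b h1 h2 hb h4
        push_cast
        linarith
      · push Not at hb
        have e : (q + m + 1) * 2 ^ s = (q + m) * 2 ^ s + 2 ^ s := by ring
        have e' : (q + (m + 1)) * 2 ^ s = (q + m + 1) * 2 ^ s := by ring
        have hxq : x ≤ (q + m) * 2 ^ s := hx.trans (Nat.mul_le_mul_right _ (by omega))
        have hblk := hV s (q + m) hxq (by omega)
        have hlast : R ((q + m) * 2 ^ s) b ≤ V :=
          (h.mono _ _ _ _ le_rfl hb.le (by omega)).trans hblk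
        by_cases ha : a ≤ (q + m) * 2 ^ s
        · have h5 := cover h hV0 hV s q hx m a ((q + m) * 2 ^ s) h1 ha le_rfl (by omega)
          have h6 := h.sub a _ b ha hb.le
          push_cast
          linarith
        · push Not at ha
          have h5 : R a b ≤ V := (h.mono _ _ _ _ ha.le h2 le_rfl).trans hlast
          push_cast
          have : (0 : ℝ) ≤ m * V := by positivity
          linarith

theorem cover' (h : Cap R) {x y : ℕ} {V : ℝ} (hV0 : 0 ≤ V) (hV : Blk R x y V) (s m a b : ℕ)
    (h1 : x + 2 ^ s ≤ a) (h2 : a ≤ b) (h3 : b ≤ a + m * 2 ^ s) (h4 : b + 2 ^ s ≤ y) :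
    R a b ≤ (m + 1) * V := by
  have hp : 0 < 2 ^ s := by positivity
  have hd := Nat.div_add_mod a (2 ^ s)
  have hm := Nat.mod_lt a hp
  have e1 : a / 2 ^ s * 2 ^ s = 2 ^ s * (a / 2 ^ s) := mul_comm _ _
  have := cover h hV0 hV s (a / 2 ^ s) (by omega) (m + 1) a b (by omega) h2 (by
    have : (a / 2 ^ s + (m + 1)) * 2 ^ s = a / 2 ^ s * 2 ^ s + m * 2 ^ s + 2 ^ s := by ring
    omega) h4
  push_cast at this
  exact this

end Cap

/-- binary expansion of the scale -/
theorem scales {G : ℕ → ℝ} {A : ℕ → ℝ} {Lm : ℕ} (hA0 : ∀ j, 0 ≤ A j) : ∀ (J : ℕ)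
    (_ : ∀ j < J, ∀ l, 2 ^ j * (l + 1) ≤ Lm → G (2 ^ j * (l + 1)) ≤ G (2 ^ j * l) + A j)
    (L c : ℕ), L < 2 ^ J → 2 ^ J * c + L ≤ Lm →
    G (2 ^ J * c + L) ≤ G (2 ^ J * c) + ∑ j ∈ range J, A j
  | 0, _, L, c, hL, _ => by
      have : L = 0 := by simpa using hL
      subst this; simp
  | J + 1, hA, L, c, hL, hLm => by
      have ih := scales hA0 J (fun j hj => hA j (by omega))
      have e1 : 2 ^ (J + 1) * c = 2 ^ J * (2 * c) := by ring
      rw [sum_range_succ]
      rw [e1] at hLm ⊢
      by_cases h : L < 2 ^ J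
      · have := ih L (2 * c) h hLm
        have := hA0 J
        linarith
      · push Not at h
        obtain ⟨L', rfl⟩ := Nat.exists_eq_add_of_le h
        have e2 : 2 ^ J * (2 * c) + (2 ^ J + L') = 2 ^ J * (2 * c + 1) + L' := by ring
        rw [e2] at hLm ⊢
        have h1 := ih L' (2 * c + 1) (by rw [pow_succ] at hL; omega) hLm
        have h2 := hA J (by omega) (2 * c) (by omega)
        linarith

/-- the two shifts: `0` and `(4 ^ k - 1) / 3` -/
def ushift (k : ℕ) : ℕ := (4 ^ k - 1) / 3

theorem three_mul_ushift (k : ℕ) : 3 * ushift k + 1 = 4 ^ k := by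
  unfold ushift
  have h : 4 ^ k % 3 = 1 := by
    rw [Nat.pow_mod]; simp
  have := Nat.div_add_mod (4 ^ k - 1) 3
  have h1 : 0 < 4 ^ k := by positivity
  omega

end VPTree
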