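/-
P235-M, helper462.  (TREE), second part: the one-sided estimate.
-/
import Vale.Agent.P235.R2.H462.Tree

namespace VPTree

open Finset

theorem ushift_mod {k r : ℕ} (hr : r ≤ k) : ushift k % 4 ^ r = ushift r := by
  obtain ⟨d, rfl⟩ := Nat.exists_eq_add_of_le hr
  have h1 := three_mul_ushift (r + d)
  have h2 := three_mul_ushift r
  have h3 := three_mul_ushift d
  have h4 : ushift (r + d) = 4 ^ r * ushift d + ushift r := by
    have : 4 ^ (r + d) = 4 ^ r * 4 ^ d := pow_add _ _ _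
    rw [this, ← h3] at h1
    have : 4 ^ r * (3 * ushift d + 1) = 3 * (4 ^ r * ushift d) + 4 ^ r := by ring
    omega
  rw [h4, Nat.mul_add_mod]
  exact Nat.mod_eq_of_lt (by omega)

theorem shift_good {k r : ℕ} (h1 : 1 ≤ r) (hr : r ≤ k) (x : ℕ) :
    x % 4 ^ r + 4 ^ (r - 1) ≤ 4 ^ r ∨ (x + ushift k) % 4 ^ r + 4 ^ (r - 1) ≤ 4 ^ r := by
  by_cases h : x % 4 ^ r + 4 ^ (r - 1) ≤ 4 ^ r
  · exact Or.inl h
  right
  push Not at h
  have hu := three_mul_ushift r
  obtain ⟨r, rfl⟩ := Nat.exists_eq_add_of_le' h1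
  simp only [Nat.add_sub_cancel] at h ⊢
  have e : 4 ^ (r + 1) = 4 * 4 ^ r := by ring
  have hp : 0 < 4 ^ r := by positivity
  rw [Nat.add_mod, ushift_mod hr]
  have hm := Nat.mod_lt x (show 0 < 4 ^ (r + 1) by positivity)
  have : (x % 4 ^ (r + 1) + ushift (r + 1)) % 4 ^ (r + 1) =
      x % 4 ^ (r + 1) + ushift (r + 1) - 4 ^ (r + 1) := by
    rw [Nat.mod_eq_sub_mod (by omega)]
    exact Nat.mod_eq_of_lt (by omega)
  rw [this]
  omega

/-- hypothesis: `T j` bounds all windows of the two shifted trees of type `j` inside `[x,y)` -/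
def TyBd (R : ℕ → ℕ → ℝ) (J x y : ℕ) (T : ℕ → ℝ) : Prop :=
  ∀ j, 1 ≤ j → j < J → ∀ u, (u = 0 ∨ u = ushift (2 ^ (J - 1))) → ∀ a b,
    (Sh.ty (2 ^ j) (2 ^ (J - j))).IsNode 0 a b → x + u ≤ a → b ≤ y + u → R (a - u) (b - u) ≤ T j

theorem ushift_le {J : ℕ} (hJ : 1 ≤ J) : ushift (2 ^ (J - 1)) ≤ 2 ^ (2 ^ J - 1) := by
  have h := three_mul_ushift (2 ^ (J - 1))
  have e : 4 ^ (2 ^ (J - 1)) = 2 * 2 ^ (2 ^ J - 1) := by
    have h1 : 2 ^ J = 2 * 2 ^ (J - 1) := by
      conv_lhs => rw [← Nat.sub_add_cancel hJ]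
      ring
    have h2 : (4 : ℕ) = 2 ^ 2 := by norm_num
    have h3 : 0 < 2 ^ (J - 1) := by positivity
    rw [h2, ← pow_mul, ← h1, ← pow_succ']
    congr 1
    omega
  omega

theorem type_step {R : ℕ → ℕ → ℝ} (h : Cap R) {J x y L : ℕ} (hxy : x + 2 ^ (L + 1) ≤ y)
    (hy : y ≤ 2 ^ (2 ^ J - 1)) {V : ℝ} (hV0 : 0 ≤ V) (hV : Cap.Blk R x y V) {T : ℕ → ℝ}
    (hT0 : ∀ j, 0 ≤ T j) (hT : TyBd R J x y T) (j : ℕ) (hj : j < J) (l : ℕ)
    (hl : 2 ^ j * (l + 1) ≤ L) :
    R x (x + 2 ^ (2 ^ j * (l + 1))) ≤ R x (x + 2 ^ (2 ^ j * l)) + (T j + 4 * V) := by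
  have step : ∀ i, i + 1 ≤ L → R x (x + 2 ^ (i + 1)) ≤ R x (x + 2 ^ i) + 2 * V := by
    intro i hi
    have e : 2 ^ (i + 1) = 2 ^ i + 2 ^ i := by ring
    have e0 : 0 < 2 ^ i := by positivity
    have e2 : 2 ^ (i + 2) = 2 ^ i + 2 ^ i + 2 ^ i + 2 ^ i := by ring
    have e3 : 2 ^ (i + 2) ≤ 2 ^ (L + 1) := Nat.pow_le_pow_right (by norm_num) (by omega)
    have h1 := h.sub x (x + 2 ^ i) (x + 2 ^ (i + 1)) (by omega) (by omega)
    have h2 := Cap.cover' h hV0 hV i 1 (x + 2 ^ i) (x + 2 ^ (i + 1)) le_rfl (by omega) (by omega)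
      (by omega)
    push_cast at h2
    linarith
  rcases Nat.eq_zero_or_pos j with rfl | hj1
  · simp only [pow_zero, one_mul] at hl ⊢
    have := step l hl
    have := hT0 0
    linarith
  · have hJ : 1 ≤ J := by omega
    set p := 2 ^ j with hp
    obtain ⟨j', rfl⟩ := Nat.exists_eq_add_of_le' hj1
    have hp2 : p = 2 * 2 ^ j' := by rw [hp]; ring
    have hj'pos : 0 < 2 ^ j' := by positivity
    set r := 2 ^ j' * (l + 1) with hr
    have hs : p * (l + 1) = 2 * r := by rw [hp2, hr]; ring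
    have hr1 : 1 ≤ r := by rw [hr]; exact Nat.mul_pos hj'pos (by omega)
    have h4 : ∀ n, 2 ^ (2 * n) = 4 ^ n := fun n => by rw [pow_mul]; norm_num
    -- bound on the scale
    have hLK : L + 1 ≤ 2 ^ J - 1 := by
      have : 2 ^ (L + 1) ≤ 2 ^ (2 ^ J - 1) := by omega
      exact (Nat.pow_le_pow_iff_right (by norm_num)).1 this
    have hJe : 2 ^ J = 2 * 2 ^ (J - 1) := by
      conv_lhs => rw [← Nat.sub_add_cancel hJ]
      ring
    have hrk : r ≤ 2 ^ (J - 1) := by omega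
    -- choice of the shift
    have hgood : ∃ u, (u = 0 ∨ u = ushift (2 ^ (J - 1))) ∧
        (x + u) % 4 ^ r + 4 ^ (r - 1) ≤ 4 ^ r := by
      rcases shift_good hr1 hrk x with hg | hg
      · exact ⟨0, Or.inl rfl, by simpa using hg⟩
      · exact ⟨_, Or.inr rfl, hg⟩
    obtain ⟨u, hu, hg⟩ := hgood
    have hule : u ≤ 2 ^ (2 ^ J - 1) := by
      rcases hu with rfl | rfl
      · omega
      · exact ushift_le hJ
    set X := x + u with hX
    set P := 2 ^ (p * l) with hP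
    have hPpos : 0 < P := by positivity
    have hSP : 2 ^ (p * (l + 1)) = 2 ^ p * P := by rw [hP, ← pow_add]; ring_nf
    have hS4 : 2 ^ (p * (l + 1)) = 4 ^ r := by rw [hs, h4]
    set S := 2 ^ (p * (l + 1)) with hS
    have hSpos : 0 < S := by positivity
    set Q := 2 ^ (2 * r - 2) with hQ
    have hQ4 : Q = 4 ^ (r - 1) := by
      rw [hQ, ← h4]; congr 1; omega
    have hPQ : P ≤ Q := by
      refine Nat.pow_le_pow_right (by norm_num) ?_
      rw [← hs]
      have : p * (l + 1) = p * l + p := by ring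
      omega
    set q := X / S with hq
    have hd := Nat.div_add_mod X S
    rw [← hq] at hd
    have hm := Nat.mod_lt X hSpos
    rw [← hS4, ← hQ4] at hg
    have e1 : (q + 1) * S = S * q + S := by ring
    set a := (X + (P - 1)) / P with ha
    have hda := Nat.div_add_mod (X + (P - 1)) P
    rw [← ha] at hda
    have hma := Nat.mod_lt (X + (P - 1)) hPpos
    have ea : a * P = P * a := mul_comm _ _
    have ha1 : X ≤ a * P := by omega
    have ha2 : a * P < X + P := by omega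
    have hSL : S ≤ 2 ^ L := Nat.pow_le_pow_right (by norm_num) hl
    have e2L : 2 ^ (L + 1) = 2 ^ L + 2 ^ L := by ring
    have heK : 2 ^ (p * 2 ^ (J - (j' + 1))) = 2 ^ (2 ^ J - 1) + 2 ^ (2 ^ J - 1) := by
      rw [hp, ← pow_add, Nat.add_sub_cancel' (by omega : j' + 1 ≤ J), ← two_mul, ← pow_succ']
      congr 1; omega
    have hnode := Sh.ty_suffix p l (2 ^ (J - (j' + 1))) a q ?_ ?_ ?_ ?_
    · rw [← hS] at hnode
      have hb := hT (j' + 1) (by omega) hj u hu _ _ hnode (by omega) (by omega)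
      have h1 : R (x + P) (x + Q) ≤ R (a * P - u) ((q + 1) * S - u) :=
        h.mono _ _ _ _ (by omega) (by omega) (by omega)
      have h2 := h.sub x (x + P) (x + Q) (by omega) (by omega)
      have e5 : 2 * r - 2 + 1 = 2 * r - 1 := by omega
      have e6 : 2 * r - 1 + 1 = 2 * r := by omega
      have h3 : R x (x + 2 ^ (2 * r - 1)) ≤ R x (x + Q) + 2 * V := by
        have := step (2 * r - 2) (by omega)
        rwa [e5] at this
      have h5 : R x (x + S) ≤ R x (x + 2 ^ (2 * r - 1)) + 2 * V := by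
        have := step (2 * r - 1) (by omega)
        rw [e6] at this
        rw [hS, hs]
        exact this
      linarith
    · -- l + 1 ≤ 2 ^ (J - j)
      by_contra hc
      push Not at hc
      have h7 : p * 2 ^ (J - (j' + 1)) < p * (l + 1) :=
        Nat.mul_lt_mul_of_pos_left hc (by positivity)
      have h8 : p * 2 ^ (J - (j' + 1)) = 2 ^ J := by
        rw [hp, ← pow_add, Nat.add_sub_cancel' (by omega : j' + 1 ≤ J)]
      omega
    · rw [heK, ← hS]; omega
    · have : q * 2 ^ p * P ≤ a * P := by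
        have : q * 2 ^ p * P = S * q := by rw [hSP]; ring
        omega
      exact Nat.le_of_mul_le_mul_right this hPpos
    · have : a * P < (q + 1) * 2 ^ p * P := by
        have : (q + 1) * 2 ^ p * P = S * q + S := by rw [hSP]; ring
        omega
      exact Nat.lt_of_mul_lt_mul_right this

/-- the one-sided estimate -/
theorem one_sided {R : ℕ → ℕ → ℝ} (h : Cap R) {J x y L : ℕ} (hxy : x + 2 ^ (L + 1) ≤ y)
    (hy : y ≤ 2 ^ (2 ^ J - 1)) {V : ℝ} (hV0 : 0 ≤ V) (hV : Cap.Blk R x y V) {T : ℕ → ℝ}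
    (hT0 : ∀ j, 0 ≤ T j) (hT : TyBd R J x y T) :
    R x (x + 2 ^ L) ≤ V + ∑ j ∈ range J, (T j + 4 * V) := by
  have hLK : L + 1 ≤ 2 ^ J - 1 := by
    have : 2 ^ (L + 1) ≤ 2 ^ (2 ^ J - 1) := by omega
    exact (Nat.pow_le_pow_iff_right (by norm_num)).1 this
  have := scales (G := fun i => R x (x + 2 ^ i)) (A := fun j => T j + 4 * V) (Lm := L)
    (fun j => by have := hT0 j; positivity) J
    (fun j hj l hl => type_step h hxy hy hV0 hV hT0 hT j hj l hl) L 0 (by omega) (by omega)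
  simp only [mul_zero, zero_add, pow_zero] at this
  have h0 := hV 0 x (by simp) (by
    have : 0 < 2 ^ (L + 1) := by positivity
    omega)
  simp only [pow_zero, mul_one] at h0
  linarith

end VPTree
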