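/-
P235-M, helper462.  (TREE), final form: the family of trees.
-/
import Vale.Agent.P235.R2.H462.Tree2

namespace VPTree

open Finset

theorem Sh.leaf_isNode : ∀ (t : Sh) (s a : ℕ), s ≤ a → a < s + t.size → t.IsNode s a (a + 1)
  | .leaf, s, a, h1, h2 => by
      change a < s + 1 at h2
      exact ⟨by omega, by omega⟩
  | .node l r, s, a, h1, h2 => by
      change a < s + (l.size + r.size) at h2
      right
      by_cases h : a < s + l.size
      · exact Or.inl (leaf_isNode l s a h1 h)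
      · exact Or.inr (leaf_isNode r _ a (by omega) (by omega))

/-- aligned dyadic blocks are windows of the dyadic tree -/
theorem Sh.dyadic_isNode {K s q : ℕ} (h : (q + 1) * 2 ^ s ≤ 2 ^ K) :
    (Sh.ty 1 K).IsNode 0 (q * 2 ^ s) ((q + 1) * 2 ^ s) := by
  have hs : s ≤ K := by
    have : 1 * 2 ^ s ≤ (q + 1) * 2 ^ s := Nat.mul_le_mul_right _ (by omega)
    exact (Nat.pow_le_pow_iff_right (by norm_num)).1 (by omega : 2 ^ s ≤ 2 ^ K)
  obtain ⟨d, rfl⟩ := Nat.exists_eq_add_of_le hs
  have := Sh.ty_block 1 s d 0 q (q * 2 ^ s) ((q + 1) * 2 ^ s) (by simpa using h) ?_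
  · exact this
  · have h1 := Sh.root_isNode (Sh.ty 1 s) (0 + q * 2 ^ (1 * s))
    rw [Sh.size_ty] at h1
    simp only [one_mul, zero_add] at h1 ⊢
    have : q * 2 ^ s + 2 ^ s = (q + 1) * 2 ^ s := by ring
    rw [this] at h1
    exact h1

/-- the index set of the family -/
abbrev Idx (J : ℕ) : Type := Option (Fin J × Bool × Bool)

/-- the trees of the family -/
def famT (J : ℕ) : Idx J → Sh
  | none => Sh.ty 1 (2 ^ J)
  | some (j, _, false) => Sh.ty (2 ^ j.1) (2 ^ (J - j.1))
  | some (j, _, true) => (Sh.ty (2 ^ j.1) (2 ^ (J - j.1))).mirror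

/-- the two shifts -/
def sh (J : ℕ) (b : Bool) : ℕ := if b then ushift (2 ^ (J - 1)) else 0

/-- the position of the word -/
def famU (J : ℕ) : Idx J → ℕ
  | none => 0
  | some (_, b, false) => sh J b
  | some (_, b, true) => 2 ^ (2 ^ J - 1) - sh J b

/-- the weights -/
noncomputable def famW (J : ℕ) : Idx J → ℝ
  | none => 1 / 2
  | some _ => 1 / (8 * J)

theorem famW_nonneg (J : ℕ) (i : Idx J) : 0 ≤ famW J i := by
  rcases i with _ | i
  · show (0 : ℝ) ≤ 1 / 2; norm_num
  · show (0 : ℝ) ≤ 1 / (8 * J); positivity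

theorem famW_sum {J : ℕ} (hJ : 1 ≤ J) : ∑ i, famW J i = 1 := by
  rw [Fintype.sum_option]
  have hJ0 : (J : ℝ) ≠ 0 := by
    have : (1 : ℝ) ≤ J := by exact_mod_cast hJ
    positivity
  have : ∀ p : Fin J × Bool × Bool, famW J (some p) = 1 / (8 * J) := fun _ => rfl
  simp only [this, Finset.sum_const, Finset.card_univ, Fintype.card_prod, Fintype.card_fin,
    Fintype.card_bool, nsmul_eq_mul]
  show (1 : ℝ) / 2 + _ = 1
  push_cast
  field_simp
  norm_num

theorem ty_size {J j : ℕ} (h : j ≤ J) : (Sh.ty (2 ^ j) (2 ^ (J - j))).size = 2 ^ (2 ^ J) := by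
  rw [Sh.size_ty, ← pow_add, Nat.add_sub_cancel' h]

theorem famT_size (J : ℕ) : ∀ i : Idx J, (famT J i).size = 2 ^ (2 ^ J)
  | none => by
      show (Sh.ty 1 (2 ^ J)).size = _
      rw [Sh.size_ty, one_mul]
  | some (j, _, false) => ty_size j.2.le
  | some (j, _, true) => by
      show (Sh.mirror _).size = _
      rw [Sh.size_mirror]; exact ty_size j.2.le

theorem sh_le {J : ℕ} (hJ : 1 ≤ J) (b : Bool) : sh J b ≤ 2 ^ (2 ^ J - 1) := by
  unfold sh
  split_ifs
  · exact ushift_le hJ
  · exact Nat.zero_le _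

theorem famU_le {J : ℕ} (hJ : 1 ≤ J) : ∀ i : Idx J, famU J i ≤ 2 ^ (2 ^ J - 1)
  | none => Nat.zero_le _
  | some (_, b, false) => sh_le hJ b
  | some (_, b, true) => Nat.sub_le _ _

/-- **(TREE)**.  For every monotone subadditive `R` and every window `[x,y)` of `[0, 2^(2^J-1)]`
there are windows `M i` of the trees `famT J i`, inside `[x,y)` (the word is placed at `famU J i`),
whose weighted mean capacity is at least `R x y / (16 (J + 1))`. -/
theorem tree_family {J : ℕ} (hJ : 1 ≤ J) {R : ℕ → ℕ → ℝ} (h : Cap R) {x y : ℕ} (hxy : x < y)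
    (hy : y ≤ 2 ^ (2 ^ J - 1)) :
    ∃ M : Idx J → ℕ × ℕ,
      (∀ i, (famT J i).IsNode 0 (M i).1 (M i).2 ∧ x + famU J i ≤ (M i).1 ∧
        (M i).2 ≤ y + famU J i) ∧
      R x y ≤ 16 * (J + 1) * ∑ i, famW J i * R ((M i).1 - famU J i) ((M i).2 - famU J i) := by
  classical
  have hK2 : 2 ^ (2 ^ J) = 2 ^ (2 ^ J - 1) + 2 ^ (2 ^ J - 1) := by
    have : 0 < 2 ^ J := by positivity
    rw [← two_mul, ← pow_succ']
    congr 1; omega
  set Z := 2 ^ (2 ^ J - 1) with hZ
  -- the best windows
  have hex : ∀ i : Idx J, ∃ m : ℕ × ℕ, ((famT J i).IsNode 0 m.1 m.2 ∧ x + famU J i ≤ m.1 ∧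
      m.2 ≤ y + famU J i) ∧ ∀ a b, (famT J i).IsNode 0 a b → x + famU J i ≤ a →
        b ≤ y + famU J i → R (a - famU J i) (b - famU J i) ≤
          R (m.1 - famU J i) (m.2 - famU J i) := by
    intro i
    have hu := famU_le hJ i
    have hsz := famT_size J i
    set F : Finset (ℕ × ℕ) := (range (2 ^ (2 ^ J) + 1) ×ˢ range (2 ^ (2 ^ J) + 1)).filter
      (fun m => (famT J i).IsNode 0 m.1 m.2 ∧ x + famU J i ≤ m.1 ∧ m.2 ≤ y + famU J i) with hF
    have hne : F.Nonempty := by
      refine ⟨(x + famU J i, x + famU J i + 1), ?_⟩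
      rw [hF, mem_filter, mem_product, mem_range, mem_range]
      refine ⟨⟨by simp only; omega, by simp only; omega⟩, ?_, le_rfl, by simp only; omega⟩
      exact Sh.leaf_isNode _ _ _ (by omega) (by rw [hsz]; omega)
    obtain ⟨m, hm, hmax⟩ := F.exists_max_image
      (fun m => R (m.1 - famU J i) (m.2 - famU J i)) hne
    rw [hF, mem_filter] at hm
    refine ⟨m, hm.2, fun a b hn h1 h2 => ?_⟩
    have hb := Sh.isNode_bounds _ _ _ _ hn
    rw [hsz] at hb
    exact hmax (a, b) (by
      rw [hF, mem_filter, mem_product, mem_range, mem_range]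
      exact ⟨⟨by simp only; omega, by simp only; omega⟩, hn, h1, h2⟩)
  choose M hM hMax using hex
  refine ⟨M, hM, ?_⟩
  set V : Idx J → ℝ := fun i => R ((M i).1 - famU J i) ((M i).2 - famU J i) with hVdef
  have hVn : ∀ i, 0 ≤ V i := fun i => h.nonneg _ _
  -- dyadic blocks
  have hblk : Cap.Blk R x y (V none) := by
    intro s q h1 h2
    have := hMax none (q * 2 ^ s) ((q + 1) * 2 ^ s) (Sh.dyadic_isNode (by omega)) (by
      show x + 0 ≤ _; omega) (by show _ ≤ y + 0; omega)
    exact this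
  -- the main inequality
  have key : R x y ≤ (8 * J + 5) * V none + ∑ p : Fin J × Bool × Bool, V (some p) := by
    by_cases hn : y = x + 1
    · subst hn
      have h1 := hblk 0 x (by simp) (by simp)
      simp only [pow_zero, mul_one] at h1
      have h2 : 0 ≤ ∑ p : Fin J × Bool × Bool, V (some p) := sum_nonneg (fun p _ => hVn _)
      have h3 := hVn none
      have h4 : (0 : ℝ) ≤ 8 * J * V none := by positivity
      nlinarith
    -- the scale
    obtain ⟨L, hL1, hL2⟩ : ∃ L, x + 2 ^ (L + 1) ≤ y ∧ y < x + 2 ^ (L + 2) := by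
      refine ⟨Nat.log 2 (y - x) - 1, ?_, ?_⟩
      · have h1 : 1 ≤ Nat.log 2 (y - x) := 
          Nat.le_log_of_pow_le (by norm_num) (by omega)
        rw [Nat.sub_add_cancel h1]
        have := Nat.pow_log_le_self 2 (show y - x ≠ 0 by omega)
        omega
      · have h1 : 1 ≤ Nat.log 2 (y - x) := 
          Nat.le_log_of_pow_le (by norm_num) (by omega)
        have : Nat.log 2 (y - x) - 1 + 2 = Nat.log 2 (y - x) + 1 := by omega
        rw [this]
        have := Nat.lt_pow_succ_log_self (show 1 < 2 by norm_num) (y - x)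
        rw [Nat.succ_eq_add_one] at this
        omega
    have e1 : 2 ^ (L + 1) = 2 ^ L + 2 ^ L := by ring
    have e2 : 2 ^ (L + 2) = 2 ^ L + 2 ^ L + 2 ^ L + 2 ^ L := by ring
    -- left part
    have hTdef : ∀ m : Bool, ∃ T : ℕ → ℝ, (∀ j, T j = if hj : j < J then
        ∑ b : Bool, V (some (⟨j, hj⟩, b, m)) else 0) := fun m => ⟨_, fun j => rfl⟩
    obtain ⟨T, hT⟩ := hTdef false
    obtain ⟨T', hT'⟩ := hTdef true
    have hT0 : ∀ j, 0 ≤ T j := by
      intro j; rw [hT]; split_ifs
      · exact sum_nonneg (fun b _ => hVn _)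
      · exact le_rfl
    have hT0' : ∀ j, 0 ≤ T' j := by
      intro j; rw [hT']; split_ifs
      · exact sum_nonneg (fun b _ => hVn _)
      · exact le_rfl
    have hTy : TyBd R J x y T := by
      intro j hj1 hj u hu a b hnode h1 h2
      obtain ⟨bb, rfl⟩ : ∃ bb : Bool, u = sh J bb := by
        rcases hu with rfl | rfl
        · exact ⟨false, rfl⟩
        · exact ⟨true, rfl⟩
      have h3 := hMax (some (⟨j, hj⟩, bb, false)) a b hnode h1 h2
      rw [hT, dif_pos hj]
      exact le_trans h3 (Finset.single_le_sum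
        (f := fun b : Bool => V (some (⟨j, hj⟩, b, false))) (fun b _ => hVn _) (mem_univ bb))
    have left := one_sided h hL1 hy (hVn none) hblk hT0 hTy
    -- right part
    have hblk' : Cap.Blk (fun a b => R (Z - b) (Z - a)) (Z - y) (Z - x) (V none) := by
      intro s q h1 h2
      show R (Z - (q + 1) * 2 ^ s) (Z - q * 2 ^ s) ≤ _
      have hs : s ≤ 2 ^ J - 1 := by
        have h3 : 1 * 2 ^ s ≤ (q + 1) * 2 ^ s := Nat.mul_le_mul_right _ (by omega)
        exact (Nat.pow_le_pow_iff_right (by norm_num)).1 (by omega : 2 ^ s ≤ 2 ^ (2 ^ J - 1))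
      have hZs : Z = 2 ^ (2 ^ J - 1 - s) * 2 ^ s := by
        rw [hZ, ← pow_add, Nat.sub_add_cancel hs]
      set D := 2 ^ (2 ^ J - 1 - s) with hD
      have hps : 0 < 2 ^ s := by positivity
      have hqD : q + 1 ≤ D := by
        have : (q + 1) * 2 ^ s ≤ D * 2 ^ s := by omega
        exact Nat.le_of_mul_le_mul_right this hps
      have e3 : Z - (q + 1) * 2 ^ s = (D - (q + 1)) * 2 ^ s := by
        rw [hZs, ← Nat.sub_mul]
      have e4 : Z - q * 2 ^ s = (D - (q + 1) + 1) * 2 ^ s := by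
        rw [hZs, ← Nat.sub_mul]
        congr 1; omega
      rw [e3, e4]
      refine hblk s (D - (q + 1)) ?_ ?_
      · rw [← e3]; omega
      · rw [← e4]
        have : Z - q * 2 ^ s ≤ y := by omega
        exact this
    have hTy' : TyBd (fun a b => R (Z - b) (Z - a)) J (Z - y) (Z - x) T' := by
      intro j hj1 hj u hu a b hnode h1 h2
      obtain ⟨bb, rfl⟩ : ∃ bb : Bool, u = sh J bb := by
        rcases hu with rfl | rfl
        · exact ⟨false, rfl⟩
        · exact ⟨true, rfl⟩
      have hbd := Sh.isNode_bounds _ _ _ _ hnode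
      rw [ty_size hj.le] at hbd
      have hul := sh_le hJ bb
      have hmir := Sh.isNode_mirror _ _ _ _ hnode 0 (2 ^ (2 ^ J) - b) (2 ^ (2 ^ J) - a)
        (by rw [ty_size hj.le]; omega) (by rw [ty_size hj.le]; omega)
      have h3 := hMax (some (⟨j, hj⟩, bb, true)) _ _ hmir
        (by show x + (2 ^ (2 ^ J - 1) - sh J bb) ≤ _; omega)
        (by show _ ≤ y + (2 ^ (2 ^ J - 1) - sh J bb); omega)
      have h4 : R (Z - (b - sh J bb)) (Z - (a - sh J bb)) ≤ V (some (⟨j, hj⟩, bb, true)) := by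
        refine le_trans (le_of_eq ?_) h3
        show _ = R (2 ^ (2 ^ J) - b - (2 ^ (2 ^ J - 1) - sh J bb))
          (2 ^ (2 ^ J) - a - (2 ^ (2 ^ J - 1) - sh J bb))
        congr 1
        · omega
        · omega
      rw [hT', dif_pos hj]
      exact le_trans h4 (Finset.single_le_sum
        (f := fun b : Bool => V (some (⟨j, hj⟩, b, true))) (fun b _ => hVn _) (mem_univ bb))
    have right := one_sided (R := fun a b => R (Z - b) (Z - a)) (h.rev Z) (x := Z - y)
      (y := Z - x) (L := L) (J := J) (by omega) (by omega) (hVn none) hblk' hT0' hTy'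
    -- middle
    have mid := Cap.cover' h (hVn none) hblk L 2 (x + 2 ^ L) (y - 2 ^ L) le_rfl (by omega)
      (by omega) (by omega)
    have s1 := h.sub x (x + 2 ^ L) y (by omega) (by omega)
    have s2 := h.sub (x + 2 ^ L) (y - 2 ^ L) y (by omega) (by omega)
    have er : R (Z - (Z - y + 2 ^ L)) (Z - (Z - y)) = R (y - 2 ^ L) y := by
      congr 1
      · omega
      · omega
    rw [er] at right
    have hsum : ∑ p : Fin J × Bool × Bool, V (some p) =
        ∑ j ∈ range J, T j + ∑ j ∈ range J, T' j := by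
      rw [Finset.sum_range, Finset.sum_range, ← Finset.sum_add_distrib, Fintype.sum_prod_type]
      refine Finset.sum_congr rfl (fun j _ => ?_)
      rw [hT, hT', dif_pos j.2, dif_pos j.2, Fintype.sum_prod_type]
      simp only [Fintype.sum_bool]
      ring
    rw [hsum]
    rw [Finset.sum_add_distrib, Finset.sum_const, card_range, nsmul_eq_mul] at left right
    push_cast at mid
    linarith
  have hfin : ∑ i, famW J i * V i = 1 / 2 * V none +
      1 / (8 * J) * ∑ p : Fin J × Bool × Bool, V (some p) := by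
    rw [Fintype.sum_option, Finset.mul_sum]
    rfl
  show R x y ≤ 16 * (J + 1) * ∑ i, famW J i * V i
  rw [hfin]
  have hJ1 : (1 : ℝ) ≤ J := by exact_mod_cast hJ
  have hS : 0 ≤ ∑ p : Fin J × Bool × Bool, V (some p) := sum_nonneg (fun p _ => hVn _)
  have h0 := hVn none
  have e5 : 16 * ((J : ℝ) + 1) * (1 / 2 * V none + 1 / (8 * J) *
      ∑ p : Fin J × Bool × Bool, V (some p)) = 8 * (J + 1) * V none +
      (2 + 2 / J) * ∑ p : Fin J × Bool × Bool, V (some p) := by
    field_simp
    ring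
  rw [e5]
  have h6 : (0 : ℝ) ≤ (1 + 2 / J) * ∑ p : Fin J × Bool × Bool, V (some p) := by positivity
  nlinarith

end VPTree
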