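/-
P235-M, helper462.  (D2): from the shapes of `TreeFam` to helper549's trees.

`toBT g t s`: the tree of shape `t` placed at the steps `s, ..., s + t.size - 1`; the leaf at the
step `i` is replaced by the tree `g i` (a step may itself be any tree, for instance a chain of
letters).
-/
import Vale.Agent.P235.R2.H347.Mix
import Vale.Agent.P235.R2.H968.M.Step
import Vale.Agent.P235.R2.H462.TreeFam

namespace VPTree

open Finset Equiv VPBruhat
open scoped Pointwise

section gen

variable {α : Type*}

/-- product over the window of the steps `s, ..., s + k - 1`, the step `s` first -/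
def prodW (y : ℕ → Perm α) (s : ℕ) : ℕ → Perm α
  | 0 => 1
  | k + 1 => y (s + k) * prodW y s k

theorem prodW_add (y : ℕ → Perm α) (s m : ℕ) :
    ∀ k, prodW y s (m + k) = prodW y (s + m) k * prodW y s m
  | 0 => by simp [prodW]
  | k + 1 => by
      show y (s + (m + k)) * prodW y s (m + k) = y (s + m + k) * prodW y (s + m) k * prodW y s m
      rw [prodW_add y s m k, mul_assoc, add_assoc]

theorem prodW_congr {y y' : ℕ → Perm α} {s : ℕ} :
    ∀ {k : ℕ}, (∀ i, s ≤ i → i < s + k → y i = y' i) → prodW y s k = prodW y' s k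
  | 0, _ => rfl
  | k + 1, h => by
      show y (s + k) * prodW y s k = y' (s + k) * prodW y' s k
      rw [h (s + k) (by omega) (by omega), prodW_congr (fun i h1 h2 => h i h1 (by omega))]

theorem prodW_shift (y : ℕ → Perm α) (s u : ℕ) :
    ∀ k, prodW (fun i => y (i + u)) s k = prodW y (s + u) k
  | 0 => rfl
  | k + 1 => by
      show y (s + k + u) * prodW (fun i => y (i + u)) s k = y (s + u + k) * prodW y (s + u) k
      rw [prodW_shift y s u k]
      congr 2; omega

theorem prodW_eq_pw {n : ℕ} (y : ℕ → Perm (Fin n)) (s : ℕ) : ∀ k, prodW y s k = pw y s k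
  | 0 => rfl
  | k + 1 => by
      show y (s + k) * prodW y s k = y (s + k) * pw y s k
      rw [prodW_eq_pw y s k]

variable [LinearOrder α] [Fintype α]

/-- the tree of shape `t` over the steps `s, ...` -/
def toBT (g : ℕ → BT α) : Sh → ℕ → BT α
  | .leaf, s => g s
  | .node l r, s => BT.node (toBT g l s) (toBT g r (s + l.size))

omit [LinearOrder α] [Fintype α] in
theorem toBT_congr {g g' : ℕ → BT α} : ∀ (t : Sh) (s : ℕ),
    (∀ i, s ≤ i → i < s + t.size → g i = g' i) → toBT g t s = toBT g' t s
  | .leaf, s, h => h s le_rfl (by simp [Sh.size])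
  | .node l r, s, h => by
      have hs : (Sh.node l r).size = l.size + r.size := rfl
      show BT.node _ _ = BT.node _ _
      rw [toBT_congr l s (fun i h1 h2 => h i h1 (by omega)),
        toBT_congr r (s + l.size) (fun i h1 h2 => h i (by omega) (by omega))]

/-- number of leaves of the steps `s, ..., s + k - 1` -/
def off (g : ℕ → BT α) (s k : ℕ) : ℕ := ∑ i ∈ range k, (g (s + i)).size

omit [LinearOrder α] [Fintype α] in
theorem off_add (g : ℕ → BT α) (s m k : ℕ) : off g s (m + k) = off g s m + off g (s + m) k := by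
  unfold off
  rw [Finset.sum_range_add]
  simp only [add_assoc]

omit [LinearOrder α] [Fintype α] in
theorem off_mono (g : ℕ → BT α) (s : ℕ) {m k : ℕ} (h : m ≤ k) : off g s m ≤ off g s k := by
  obtain ⟨d, rfl⟩ := Nat.exists_eq_add_of_le h
  rw [off_add]; exact Nat.le_add_right _ _

omit [LinearOrder α] [Fintype α] in
theorem size_toBT (g : ℕ → BT α) : ∀ (t : Sh) (s : ℕ), (toBT g t s).size = off g s t.size
  | .leaf, s => by
      show (g s).size = ∑ i ∈ range 1, (g (s + i)).size
      simp
  | .node l r, s => by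
      show (toBT g l s).size + (toBT g r (s + l.size)).size = off g s (l.size + r.size)
      rw [size_toBT g l s, size_toBT g r, off_add]

/-- the value of the step `i` -/
def stepVal (g : ℕ → BT α) : (t : Sh) → (s : ℕ) → (toBT g t s).Conf → ℕ → Perm α
  | .leaf, s, c, i => if i = s then (g s).val c else 1
  | .node l r, s, c, i =>
      let c' : (toBT g l s).Conf × (toBT g r (s + l.size)).Conf := c
      if i < s + l.size then stepVal g l s c'.1 i else stepVal g r (s + l.size) c'.2 i

omit [LinearOrder α] [Fintype α] in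
theorem stepVal_left (g : ℕ → BT α) (l r : Sh) (s : ℕ)
    (c : (toBT g l s).Conf × (toBT g r (s + l.size)).Conf) {i : ℕ} (h : i < s + l.size) :
    stepVal g (.node l r) s c i = stepVal g l s c.1 i := by
  show (if i < s + l.size then stepVal g l s c.1 i else stepVal g r (s + l.size) c.2 i) = _
  rw [if_pos h]

omit [LinearOrder α] [Fintype α] in
theorem stepVal_right (g : ℕ → BT α) (l r : Sh) (s : ℕ)
    (c : (toBT g l s).Conf × (toBT g r (s + l.size)).Conf) {i : ℕ} (h : s + l.size ≤ i) :
    stepVal g (.node l r) s c i = stepVal g r (s + l.size) c.2 i := by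
  show (if i < s + l.size then stepVal g l s c.1 i else stepVal g r (s + l.size) c.2 i) = _
  rw [if_neg (by omega)]

omit [LinearOrder α] [Fintype α] in
/-- the product of the leaves of the first `k` steps -/
theorem pre_off (g : ℕ → BT α) : ∀ (t : Sh) (s : ℕ) (c : (toBT g t s).Conf) (k : ℕ), k ≤ t.size →
    (toBT g t s).pre (off g s k) c = prodW (stepVal g t s c) s k
  | .leaf, s, c, k, hk => by
      change k ≤ 1 at hk
      interval_cases k
      · have : off g s 0 = 0 := by simp [off]
        rw [this, BT.pre_zero]; rfl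
      · have : off g s 1 = (g s).size := by simp [off]
        rw [this]
        let c0 : (g s).Conf := c
        have h0 : (g s).pre (g s).size c0 = (g s).val c0 := BT.pre_top _ _ le_rfl c0
        have h00 : prodW (stepVal g .leaf s c) s 1 = (if s + 0 = s then (g s).val c0 else 1) * 1 :=
          rfl
        rw [h00, if_pos (by simp), mul_one]
        exact h0
  | .node l r, s, c, k, hk => by
      change k ≤ l.size + r.size at hk
      let c' : (toBT g l s).Conf × (toBT g r (s + l.size)).Conf := c
      have hll : (toBT g l s).size = off g s l.size := size_toBT g l s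
      by_cases h : k ≤ l.size
      · have h1 : off g s k ≤ (toBT g l s).size := by
          rw [hll]; exact off_mono g s h
        have h2 : (toBT g (.node l r) s).pre (off g s k) c = (toBT g l s).pre (off g s k) c'.1 :=
          BT.pre_node_left _ _ h1 c'
        rw [h2, pre_off g l s c'.1 k h]
        refine prodW_congr (fun i h3 h4 => ?_)
        exact (stepVal_left g l r s c' (by omega)).symm
      · push Not at h
        obtain ⟨d, rfl⟩ := Nat.exists_eq_add_of_le h.le
        have h1 : (toBT g l s).size ≤ off g s (l.size + d) := by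
          rw [hll]; exact off_mono g s (by omega)
        have h2 : (toBT g (.node l r) s).pre (off g s (l.size + d)) c =
            (toBT g r (s + l.size)).pre (off g s (l.size + d) - (toBT g l s).size) c'.2 *
              (toBT g l s).val c'.1 := BT.pre_node_right _ _ h1 c'
        rw [h2, hll, off_add, Nat.add_sub_cancel_left, pre_off g r _ c'.2 d (by omega)]
        have h3 : (toBT g l s).val c'.1 = prodW (stepVal g l s c'.1) s l.size := by
          rw [← pre_off g l s c'.1 l.size le_rfl, ← hll, BT.pre_top _ _ le_rfl]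
        rw [h3, prodW_add]
        congr 1
        · refine prodW_congr (fun i h4 h5 => ?_)
          exact (stepVal_right g l r s c' (by omega)).symm
        · refine prodW_congr (fun i h4 h5 => ?_)
          exact (stepVal_left g l r s c' (by omega)).symm

omit [LinearOrder α] [Fintype α] in
theorem val_toBT (g : ℕ → BT α) (t : Sh) (s : ℕ) (c : (toBT g t s).Conf) :
    (toBT g t s).val c = prodW (stepVal g t s c) s t.size := by
  rw [← pre_off g t s c t.size le_rfl, ← size_toBT, BT.pre_top _ _ le_rfl]

/-- windows of the shape are windows of the tree -/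
theorem exists_node (g : ℕ → BT α) : ∀ (t : Sh) (s x y : ℕ), t.IsNode s x y →
    ∃ (t' : Sh) (w : BT.Node (toBT g t s)), x + t'.size = y ∧ w.set = (toBT g t' x).set ∧
      ∀ c, w.val c = prodW (stepVal g t s c) x t'.size
  | .leaf, s, x, y, h => by
      obtain ⟨rfl, rfl⟩ := h
      exact ⟨.leaf, BT.Node.here _, rfl, rfl, fun c => val_toBT g .leaf x c⟩
  | .node l r, s, x, y, h => by
      rcases h with ⟨rfl, rfl⟩ | h | h
      · exact ⟨.node l r, BT.Node.here _, rfl, rfl, fun c => val_toBT g (.node l r) x c⟩
      · have hb := Sh.isNode_bounds _ _ _ _ h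
        obtain ⟨t', w, h1, h2, h3⟩ := exists_node g l s x y h
        refine ⟨t', BT.Node.left _ w, h1, h2, fun c => ?_⟩
        let c' : (toBT g l s).Conf × (toBT g r (s + l.size)).Conf := c
        show w.val c'.1 = _
        rw [h3 c'.1]
        refine prodW_congr (fun i h4 h5 => ?_)
        exact (stepVal_left g l r s c' (by omega)).symm
      · have hb := Sh.isNode_bounds _ _ _ _ h
        obtain ⟨t', w, h1, h2, h3⟩ := exists_node g r (s + l.size) x y h
        refine ⟨t', BT.Node.right _ w, h1, h2, fun c => ?_⟩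
        let c' : (toBT g l s).Conf × (toBT g r (s + l.size)).Conf := c
        show w.val c'.2 = _
        rw [h3 c'.2]
        refine prodW_congr (fun i h4 h5 => ?_)
        exact (stepVal_right g l r s c' (by omega)).symm

/-- the product set of a window of steps -/
noncomputable def PS (g : ℕ → BT α) (s : ℕ) : ℕ → Finset (Perm α)
  | 0 => {1}
  | k + 1 => (g (s + k)).set * PS g s k

theorem PS_add (g : ℕ → BT α) (s m : ℕ) :
    ∀ k, PS g s (m + k) = PS g (s + m) k * PS g s m
  | 0 => by
      show PS g s m = ({1} : Finset (Perm α)) * PS g s m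
      rw [Finset.singleton_one, one_mul]
  | k + 1 => by
      show (g (s + (m + k))).set * PS g s (m + k) =
        (g (s + m + k)).set * PS g (s + m) k * PS g s m
      rw [PS_add g s m k, mul_assoc, add_assoc]

theorem set_toBT (g : ℕ → BT α) : ∀ (t : Sh) (s : ℕ), (toBT g t s).set = PS g s t.size
  | .leaf, s => by
      show (g s).set = (g (s + 0)).set * ({1} : Finset (Perm α))
      rw [Finset.singleton_one, mul_one, add_zero]
  | .node l r, s => by
      show (toBT g r (s + l.size)).set * (toBT g l s).set = PS g s (l.size + r.size)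
      rw [set_toBT g l s, set_toBT g r, PS_add]

theorem mem_PS (g : ℕ → BT α) (s : ℕ) : ∀ (k : ℕ) (z : Perm α), z ∈ PS g s k ↔
    ∃ y : ℕ → Perm α, (∀ i, s ≤ i → i < s + k → y i ∈ (g i).set) ∧ prodW y s k = z
  | 0, z => by
      show z ∈ ({1} : Finset (Perm α)) ↔ _
      rw [Finset.mem_singleton]
      constructor
      · rintro rfl
        exact ⟨fun _ => 1, fun i h1 h2 => by omega, rfl⟩
      · rintro ⟨y, _, h⟩
        exact h.symm
  | k + 1, z => by
      show z ∈ (g (s + k)).set * PS g s k ↔ _
      rw [Finset.mem_mul]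
      constructor
      · rintro ⟨a, ha, b, hb, rfl⟩
        obtain ⟨y, hy, rfl⟩ := (mem_PS g s k b).1 hb
        refine ⟨Function.update y (s + k) a, fun i h1 h2 => ?_, ?_⟩
        · by_cases h : i = s + k
          · subst h; simpa using ha
          · rw [Function.update_of_ne h]
            exact hy i h1 (by omega)
        · show Function.update y (s + k) a (s + k) * _ = _
          rw [Function.update_self]
          congr 1
          refine prodW_congr (fun i h1 h2 => ?_)
          rw [Function.update_of_ne (by omega)]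
      · rintro ⟨y, hy, h⟩
        exact ⟨y (s + k), hy _ (by omega) (by omega), prodW y s k,
          (mem_PS g s k _).2 ⟨y, fun i h1 h2 => hy i h1 (by omega), rfl⟩, h⟩

theorem one_mem_PS {g : ℕ → BT α} (h1 : ∀ i, 1 ∈ (g i).set) (s : ℕ) : ∀ k, 1 ∈ PS g s k
  | 0 => Finset.mem_singleton_self _
  | k + 1 => by
      have := Finset.mul_mem_mul (h1 (s + k)) (one_mem_PS h1 s k)
      rwa [mul_one] at this

theorem PS_mono {g : ℕ → BT α} (h1 : ∀ i, 1 ∈ (g i).set) {x' x y y' : ℕ} (hx : x' ≤ x)
    (hxy : x ≤ y) (hy : y ≤ y') : PS g x (y - x) ⊆ PS g x' (y' - x') := by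
  intro z hz
  have e1 : y' - x' = (x - x') + ((y - x) + (y' - y)) := by omega
  have e2 : x' + (x - x') = x := by omega
  have e3 : x + (y - x) = y := by omega
  rw [e1, PS_add, e2, PS_add, e3]
  have h2 := Finset.mul_mem_mul (Finset.mul_mem_mul (one_mem_PS h1 y (y' - y)) hz)
    (one_mem_PS h1 x' (x - x'))
  rwa [one_mul, mul_one] at h2

theorem PS_congr {g g' : ℕ → BT α} {s : ℕ} : ∀ {k : ℕ},
    (∀ i, s ≤ i → i < s + k → g i = g' i) → PS g s k = PS g' s k
  | 0, _ => rfl
  | k + 1, h => by
      show (g (s + k)).set * PS g s k = (g' (s + k)).set * PS g' s k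
      rw [h (s + k) (by omega) (by omega), PS_congr (fun i h1 h2 => h i h1 (by omega))]

/-- the word moved to the right by `u` steps -/
def shiftG (g : ℕ → BT α) (u : ℕ) (i : ℕ) : BT α := if u ≤ i then g (i - u) else .leaf {1}

omit [LinearOrder α] [Fintype α] in
theorem shiftG_add (g : ℕ → BT α) (u i : ℕ) : shiftG g u (i + u) = g i := by
  unfold shiftG
  rw [if_pos (by omega), Nat.add_sub_cancel]

theorem one_mem_shiftG {g : ℕ → BT α} (h1 : ∀ i, 1 ∈ (g i).set) (u i : ℕ) :
    1 ∈ (shiftG g u i).set := by
  unfold shiftG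
  split_ifs
  · exact h1 _
  · exact Finset.mem_singleton_self _

theorem PS_shiftG (g : ℕ → BT α) (u s : ℕ) : ∀ k, PS (shiftG g u) (s + u) k = PS g s k
  | 0 => rfl
  | k + 1 => by
      show (shiftG g u (s + u + k)).set * PS (shiftG g u) (s + u) k = (g (s + k)).set * PS g s k
      rw [PS_shiftG g u s k]
      have : s + u + k = s + k + u := by omega
      rw [this, shiftG_add]

end gen

section flux

variable {n : ℕ}

theorem flux_one (a : ℕ) : flux a (1 : Perm (Fin n)) = 0 := by
  unfold flux
  rw [Finset.card_eq_zero, Finset.filter_eq_empty_iff]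
  intro x _ h
  rw [Perm.one_apply] at h
  omega

/-- the flux is subadditive -/
theorem flux_mul_le (a : ℕ) (v u : Perm (Fin n)) : flux a (v * u) ≤ flux a v + flux a u := by
  classical
  unfold flux
  have h1 : (univ.filter (fun x : Fin n => (x : ℕ) < a ∧ a ≤ ((v * u) x : ℕ))).card ≤
      ((univ.filter (fun x : Fin n => (u x : ℕ) < a ∧ a ≤ (v (u x) : ℕ))) ∪
        (univ.filter (fun x : Fin n => (x : ℕ) < a ∧ a ≤ (u x : ℕ)))).card := by
    apply Finset.card_le_card
    intro x hx
    rw [Finset.mem_filter] at hx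
    rw [Finset.mem_union, Finset.mem_filter, Finset.mem_filter]
    obtain ⟨_, h3, h4⟩ := hx
    by_cases h : (u x : ℕ) < a
    · exact Or.inl ⟨Finset.mem_univ _, h, h4⟩
    · exact Or.inr ⟨Finset.mem_univ _, h3, by omega⟩
  have h2 : (univ.filter (fun x : Fin n => (u x : ℕ) < a ∧ a ≤ (v (u x) : ℕ))).card =
      (univ.filter (fun x : Fin n => (x : ℕ) < a ∧ a ≤ (v x : ℕ))).card := by
    refine Finset.card_bij (fun x _ => u x) (fun x hx => ?_) (fun x _ y _ h => u.injective h)
      (fun y hy => ⟨u.symm y, ?_, by simp⟩)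
    · simpa using hx
    · simpa using hy
  calc _ ≤ _ := h1
    _ ≤ _ := Finset.card_union_le _ _
    _ = _ := by rw [h2]

/-- the capacity of the window `[x, y)` at the level `a` -/
noncomputable def capF (g : ℕ → BT (Fin n)) (a : ℕ) (x y : ℕ) : ℝ :=
  (((PS g x (y - x)).sup (flux a) : ℕ) : ℝ)

theorem flux_le_capF (g : ℕ → BT (Fin n)) (a x y : ℕ) {z : Perm (Fin n)}
    (hz : z ∈ PS g x (y - x)) : (flux a z : ℝ) ≤ capF g a x y := by
  unfold capF
  exact_mod_cast Finset.le_sup (f := flux a) hz

theorem exists_capF {g : ℕ → BT (Fin n)} (h1 : ∀ i, 1 ∈ (g i).set) (a x y : ℕ) :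
    ∃ z ∈ PS g x (y - x), (flux a z : ℝ) = capF g a x y := by
  obtain ⟨z, hz, h⟩ := Finset.exists_mem_eq_sup (PS g x (y - x)) ⟨1, one_mem_PS h1 _ _⟩ (flux a)
  exact ⟨z, hz, by unfold capF; rw [h]⟩

/-- the capacity is monotone and subadditive -/
theorem cap_capF {g : ℕ → BT (Fin n)} (h1 : ∀ i, 1 ∈ (g i).set) (a : ℕ) : Cap (capF g a) where
  nonneg x y := Nat.cast_nonneg _
  zero x := by
    unfold capF
    rw [Nat.sub_self]
    show ((({1} : Finset (Perm (Fin n))).sup (flux a) : ℕ) : ℝ) = 0
    rw [Finset.sup_singleton, flux_one]; simp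
  mono x' x y y' hx hxy hy := by
    unfold capF
    exact_mod_cast Finset.sup_mono (PS_mono h1 hx hxy hy)
  sub x y z hxy hyz := by
    obtain ⟨v, hv, he⟩ := exists_capF h1 a x z
    rw [← he]
    have e1 : z - x = (y - x) + (z - y) := by omega
    have e2 : x + (y - x) = y := by omega
    rw [e1, PS_add, e2, Finset.mem_mul] at hv
    obtain ⟨v2, h2, v1, h3, rfl⟩ := hv
    have h4 := flux_le_capF g a y z h2
    have h5 := flux_le_capF g a x y h3
    have h6 : (flux a (v2 * v1) : ℝ) ≤ flux a v2 + flux a v1 := by
      exact_mod_cast flux_mul_le a v2 v1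
    linarith

/-- **(TREE) for steps.**  `g i` = tree of the step `i` (any tree of letters).  For every window
`[x, y)` of steps there are windows `[p i, q i)` inside it which are nodes of the trees
`toBT (shiftG g (famU J i)) (famT J i) 0`, with the stated weighted mean capacity. -/
theorem tree_steps {J : ℕ} (hJ : 1 ≤ J) {g : ℕ → BT (Fin n)} (h1 : ∀ i, 1 ∈ (g i).set) (a : ℕ)
    {x y : ℕ} (hxy : x < y) (hy : y ≤ 2 ^ (2 ^ J - 1)) :
    ∃ p q : Idx J → ℕ,
      (∀ i, x ≤ p i ∧ p i < q i ∧ q i ≤ y ∧
        ∃ (t' : Sh) (w : BT.Node (toBT (shiftG g (famU J i)) (famT J i) 0)),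
          p i + t'.size = q i ∧
          w.set = (toBT (shiftG g (famU J i)) t' (p i + famU J i)).set ∧
          w.set = PS g (p i) (q i - p i) ∧
          ∀ c, w.val c = prodW (stepVal (shiftG g (famU J i)) (famT J i) 0 c)
            (p i + famU J i) (q i - p i)) ∧
      capF g a x y ≤ 16 * (J + 1) * ∑ i, famW J i * capF g a (p i) (q i) := by
  obtain ⟨M, hM, hR⟩ := tree_family hJ (cap_capF h1 a) hxy hy
  refine ⟨fun i => (M i).1 - famU J i, fun i => (M i).2 - famU J i, fun i => ?_, hR⟩
  obtain ⟨hn, h2, h3⟩ := hM i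
  have hb := Sh.isNode_bounds _ _ _ _ hn
  obtain ⟨t', w, h4, h5, h6⟩ := exists_node (shiftG g (famU J i)) (famT J i) 0 _ _ hn
  have e1 : (M i).1 - famU J i + famU J i = (M i).1 := by omega
  have e2 : (M i).2 - famU J i - ((M i).1 - famU J i) = t'.size := by omega
  show x ≤ (M i).1 - famU J i ∧ (M i).1 - famU J i < (M i).2 - famU J i ∧
    (M i).2 - famU J i ≤ y ∧ _
  refine ⟨by omega, by omega, by omega, t', w, ?_, ?_, ?_, ?_⟩
  · show (M i).1 - famU J i + t'.size = (M i).2 - famU J i
    omega
  · show w.set = (toBT (shiftG g (famU J i)) t' ((M i).1 - famU J i + famU J i)).set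
    rw [e1]; exact h5
  · show w.set = PS g ((M i).1 - famU J i) ((M i).2 - famU J i - ((M i).1 - famU J i))
    rw [e2, h5, set_toBT, ← PS_shiftG g (famU J i) ((M i).1 - famU J i) t'.size, e1]
  · intro c
    show w.val c = prodW _ ((M i).1 - famU J i + famU J i)
      ((M i).2 - famU J i - ((M i).1 - famU J i))
    rw [e1, e2]
    exact h6 c

end flux

end VPTree
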